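import Vale.Agent.P076.R2.H831V.Spec2

/-!
# P076 : anisotropic Sobolev spaces, the conclusion for the data (row Z2)
-/

open MeasureTheory Complex FourierTransform Filter Topology Set
open scoped ENNReal NNReal

namespace Vale.Agent.P076.R2.H873

open Vale.Agent.P076 Vale.Agent.P076.H791 Vale.Agent.P076.R2 Vale.Agent.P076.R2.H45
open Vale.Agent.P076.R2.H831 Vale.Agent.P076.R2.H831V

variable {n : ℕ}

theorem stAniF (hn : 1 ≤ n) (h : StAni n) : StAniF n := by
  intro e ε he hε f g hfg hI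
  have hlin : Continuous fun ξ : Fin n → ℝ => ∑ i, ξ i * e i := by fun_prop
  have hper : Continuous fun ξ : Fin n → ℝ => ξ - (∑ i, ξ i * e i) • e := by fun_prop
  have m1 : Measurable fun ξ : Fin n → ℝ => |∑ i, ξ i * e i| ^ (1 / 2 + ε) :=
    (continuous_abs.measurable.comp hlin.measurable).pow_const _
  have m2 : Measurable fun ξ : Fin n → ℝ => nrm (ξ - (∑ i, ξ i * e i) • e) ^ (1 + ε) :=
    (measurable_nrm.comp hper.measurable).pow_const _
  have p1 : ∀ ξ : Fin n → ℝ, 0 ≤ |∑ i, ξ i * e i| ^ (1 / 2 + ε) :=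
    fun ξ => Real.rpow_nonneg (abs_nonneg _) _
  have p2 : ∀ ξ : Fin n → ℝ, 0 ≤ nrm (ξ - (∑ i, ξ i * e i) • e) ^ (1 + ε) :=
    fun ξ => Real.rpow_nonneg (Real.sqrt_nonneg _) _
  refine strong_of_MP (fun ξ : Fin n → ℝ => ENNReal.ofReal
    (1 + |∑ i, ξ i * e i| ^ (1 / 2 + ε) + nrm (ξ - (∑ i, ξ i * e i) • e) ^ (1 + ε)))
    (((measurable_const.add m1).add m2).ennreal_ofReal) (fun ξ => ?_) (h e ε he hε) hfg ?_
  · refine ENNReal.one_le_ofReal.2 ?_
    have := p1 ξ
    have := p2 ξ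
    linarith
  · have hg2 : Integrable (fun ξ => ‖g ξ‖ ^ 2) := hfg.2.1.integrable_norm_pow (by norm_num)
    have h1 : Integrable (fun ξ : Fin n → ℝ => (1 + |∑ i, ξ i * e i| ^ (1 / 2 + ε) +
        nrm (ξ - (∑ i, ξ i * e i) • e) ^ (1 + ε)) * ‖g ξ‖ ^ 2) := by
      refine (hg2.add hI).congr (Eventually.of_forall fun ξ => ?_)
      simp only [Pi.add_apply]
      ring
    refine lt_of_le_of_lt (le_of_eq ?_) h1.lintegral_lt_top
    refine lintegral_congr fun ξ => ?_
    have q := p1 ξ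
    have q' := p2 ξ
    rw [ENNReal.ofReal_mul (by linarith), ENNReal.ofReal_pow (norm_nonneg _), ofReal_norm]

end Vale.Agent.P076.R2.H873
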